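import Vale.Agent.Lib.P295.Defs

/-!
Basic facts on coordinates: chain rule, absence of critical points, and the slice criterion.
-/

namespace Vale.Agent.Lib.P295

open MvPolynomial

variable {σ : Type} [Fintype σ] [DecidableEq σ]

/-- The chain rule for a derivation applied to a polynomial expression. -/
lemma derivation_aeval {A : Type} [CommRing A] [Algebra ℂ A] (D : Derivation ℂ A A)
    (f : σ → A) (p : MvPolynomial σ ℂ) :
    D (aeval f p) = ∑ i, aeval f (pderiv i p) * D (f i) := by
  induction p using MvPolynomial.induction_on with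
  | C a =>
    have h : aeval f (C a : MvPolynomial σ ℂ) = algebraMap ℂ A a := by
      simp
    rw [h, D.map_algebraMap]
    simp
  | add p q hp hq =>
    simp only [map_add, hp, hq, add_mul, Finset.sum_add_distrib]
  | mul_X p j hp =>
    rw [map_mul, aeval_X, D.leibniz, hp]
    simp only [smul_eq_mul, Finset.mul_sum]
    have h2 : ∀ i, aeval f (pderiv i (p * X j)) * D (f i)
        = aeval f p * (if i = j then D (f i) else 0) + f j * (aeval f (pderiv i p) * D (f i)) := by
      intro i
      rw [pderiv_mul, map_add, map_mul, map_mul, aeval_X]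
      by_cases h : i = j
      · subst h; simp; ring
      · have : pderiv i (X j : MvPolynomial σ ℂ) = 0 := pderiv_X_of_ne (Ne.symm h)
        simp [this, h]; ring
    simp only [h2, Finset.sum_add_distrib, ← Finset.mul_sum]
    congr 1
    simp

/-- Evaluating a substitution is evaluating at the values of the substituted polynomials. -/
lemma eval_aeval' (x : σ → ℂ) (g : σ → MvPolynomial σ ℂ) (p : MvPolynomial σ ℂ) :
    eval x (aeval g p) = eval (fun i => eval x (g i)) p := by
  induction p using MvPolynomial.induction_on with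
  | C a => simp
  | add p q hp hq => rw [map_add, map_add, map_add, hp, hq]
  | mul_X p j hp => rw [map_mul, map_mul, map_mul, hp, aeval_X, eval_X]

/-- If the derivative in the direction `v` of `p` vanishes, `p` is constant along `v`. -/
lemma eval_add_smul_of_directional_eq_zero (v : σ → ℂ) (p : MvPolynomial σ ℂ)
    (hp : ∑ i, C (v i) * pderiv i p = 0) (x : σ → ℂ) (s : ℂ) :
    eval (fun i => x i + s * v i) p = eval x p := by
  classical
  let f : σ → Polynomial ℂ := fun i => Polynomial.C (x i) + Polynomial.C (v i) * Polynomial.X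
  let q : Polynomial ℂ := aeval f p
  have hq : Polynomial.derivative q = 0 := by
    have := derivation_aeval (Polynomial.derivative' (R := ℂ)) f p
    have h1 : ∀ i, (Polynomial.derivative' (R := ℂ)) (f i) = Polynomial.C (v i) := by
      intro i
      simp [f]
    simp only [h1] at this
    have h2 : aeval f (∑ i, C (v i) * pderiv i p) = 0 := by rw [hp, map_zero]
    rw [map_sum] at h2
    have h3 : (∑ i, aeval f (pderiv i p) * Polynomial.C (v i)) = 0 := by
      rw [← h2]
      refine Finset.sum_congr rfl fun i _ => ?_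
      rw [map_mul, mul_comm]
      congr 1
      simp [Polynomial.algebraMap_eq]
    rw [h3] at this
    simpa [q] using this
  have hev : ∀ t : ℂ, Polynomial.eval t q = eval (fun i => x i + t * v i) p := by
    intro t
    have : (Polynomial.aeval t : Polynomial ℂ →ₐ[ℂ] ℂ) q =
        aeval (fun i => (Polynomial.aeval t : Polynomial ℂ →ₐ[ℂ] ℂ) (f i)) p := by
      simp only [q]
      rw [← AlgHom.comp_apply, MvPolynomial.comp_aeval]
    rw [Polynomial.coe_aeval_eq_eval] at this
    rw [this, MvPolynomial.aeval_eq_eval]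
    have hfun : (fun i => Polynomial.eval t (f i)) = fun i => x i + t * v i := by
      funext i
      simp [f]
      ring
    rw [hfun]
  have hc : q = Polynomial.C (q.coeff 0) := by
    exact Polynomial.eq_C_of_natDegree_eq_zero (Polynomial.derivative_eq_zero.mp hq)
  have h0 := hev 0
  have hs := hev s
  rw [hc] at h0 hs
  simp only [Polynomial.eval_C] at h0 hs
  have hfun : (fun i => x i + 0 * v i) = x := by
    funext i
    simp
  rw [← hs, h0, hfun]

/-- The `i`-th row of the Jacobian matrix of an automorphism never vanishes. -/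
lemma exists_pderiv_ne_zero (φ : MvPolynomial σ ℂ ≃ₐ[ℂ] MvPolynomial σ ℂ) (i : σ) (x : σ → ℂ) :
    ∃ k, eval x (pderiv k (φ (X i))) ≠ 0 := by
  classical
  let B : Matrix σ σ ℂ := fun l k => eval x (pderiv k (φ (X l)))
  let A : Matrix σ σ ℂ := fun j l => eval x (φ (pderiv l (φ.symm (X j))))
  have hφ : ∀ p, φ p = aeval (fun l => φ (X l)) p := by
    intro p
    have : (φ : MvPolynomial σ ℂ →ₐ[ℂ] MvPolynomial σ ℂ) = aeval (fun l => φ (X l)) := by
      ext l
      simp
    exact congrArg (fun g : MvPolynomial σ ℂ →ₐ[ℂ] MvPolynomial σ ℂ => g p) this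
  have hAB : A * B = 1 := by
    ext j k
    rw [Matrix.mul_apply]
    have h := derivation_aeval (pderiv k) (fun l => φ (X l)) (φ.symm (X j))
    rw [← hφ] at h
    simp only [AlgEquiv.apply_symm_apply] at h
    have h2 := congrArg (eval x) h
    rw [map_sum] at h2
    simp only [map_mul, ← hφ] at h2
    simp only [A, B]
    rw [← h2]
    by_cases hjk : j = k
    · subst hjk
      simp
    · have : pderiv k (X j : MvPolynomial σ ℂ) = 0 := pderiv_X_of_ne hjk
      simp [this, hjk]
  have hBA : B * A = 1 := mul_eq_one_comm.mp hAB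
  by_contra hne
  push Not at hne
  have h1 : (B * A) i i = 1 := by rw [hBA]; simp
  rw [Matrix.mul_apply] at h1
  have h0 : ∀ l, B i l = 0 := fun l => hne l
  simp [h0] at h1

omit [Fintype σ] in
/-- Multiplying a coordinate by a nonzero constant gives a coordinate. -/
lemma IsCoordinate.C_mul {f : MvPolynomial σ ℂ} (hf : IsCoordinate f) {μ : ℂ} (hμ : μ ≠ 0) :
    IsCoordinate (C μ * f) := by
  classical
  obtain ⟨φ, i, hi⟩ := hf
  let S : ℂ → (MvPolynomial σ ℂ →ₐ[ℂ] MvPolynomial σ ℂ) := fun c =>
    aeval (fun j => if j = i then C c * X i else X j)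
  have hS : ∀ c d, (S c).comp (S d) = S (c * d) := by
    intro c d
    ext j
    by_cases h : j = i
    · subst h
      simp [S, mul_comm, mul_left_comm]
    · simp [S, h]
  have hS1 : S 1 = AlgHom.id ℂ _ := by
    ext j
    by_cases h : j = i
    · subst h
      simp [S]
    · simp [S, h]
  let Sμ : MvPolynomial σ ℂ ≃ₐ[ℂ] MvPolynomial σ ℂ :=
    AlgEquiv.ofAlgHom (S μ) (S μ⁻¹)
      (by rw [hS, mul_inv_cancel₀ hμ, hS1])
      (by rw [hS, inv_mul_cancel₀ hμ, hS1])
  refine ⟨Sμ.trans φ, i, ?_⟩
  have : Sμ (X i) = C μ * X i := by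
    simp [Sμ, S]
  simp only [AlgEquiv.trans_apply, this, map_mul, hi]
  congr 1
  have hc : (C μ : MvPolynomial σ ℂ) = algebraMap ℂ _ μ := rfl
  rw [hc, AlgEquiv.commutes]

/-- Slice criterion: a polynomial with a nonzero constant derivative in some direction of
`ℂ^σ` is a coordinate. -/
theorem isCoordinate_of_directional (f : MvPolynomial σ ℂ) (v : σ → ℂ) {γ : ℂ} (hγ : γ ≠ 0)
    (h : ∑ i, C (v i) * pderiv i f = C γ) : IsCoordinate f := by
  classical
  have hk : ∃ k, v k ≠ 0 := by
    by_contra hv
    push Not at hv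
    simp only [hv, map_zero, zero_mul, Finset.sum_const_zero] at h
    exact hγ (C_injective σ ℂ (by simpa using h.symm))
  obtain ⟨k, hk⟩ := hk
  set μ : ℂ := γ / v k with hμdef
  have hμ : μ ≠ 0 := div_ne_zero hγ hk
  set h0 : MvPolynomial σ ℂ := f - C μ * X k with hh0
  have hdir : ∑ i, C (v i) * pderiv i h0 = 0 := by
    have h1 : ∀ i, C (v i) * pderiv i h0 = C (v i) * pderiv i f - C (v i) * C μ * pderiv i (X k) := by
      intro i
      rw [hh0, map_sub, pderiv_C_mul, mul_sub, mul_assoc]
    simp only [h1]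
    rw [Finset.sum_sub_distrib, h]
    have h2 : ∑ i, C (v i) * C μ * pderiv i (X k : MvPolynomial σ ℂ) = C (v k) * C μ := by
      rw [Finset.sum_eq_single k]
      · simp
      · intro b _ hb
        rw [pderiv_X_of_ne (Ne.symm hb)]
        simp
      · simp
    rw [h2, ← C_mul]
    have : v k * μ = γ := by
      rw [hμdef]
      field_simp
    rw [this, sub_self]
  let Φ : ℂ → (MvPolynomial σ ℂ →ₐ[ℂ] MvPolynomial σ ℂ) := fun c =>
    aeval (fun j => X j + C (c * v j) * h0)
  have hΦh : ∀ c, Φ c h0 = h0 := by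
    intro c
    apply MvPolynomial.funext
    intro x
    have hev : eval x (Φ c h0) = eval (fun i => x i + (c * eval x h0) * v i) h0 := by
      simp only [Φ]
      rw [eval_aeval']
      have hfun : (fun i => eval x (X i + C (c * v i) * h0)) =
          fun i => x i + (c * eval x h0) * v i := by
        funext i
        simp
        ring
      rw [hfun]
    rw [hev, eval_add_smul_of_directional_eq_zero v h0 hdir]
  have hΦΦ : ∀ c d, (Φ c).comp (Φ d) = Φ (c + d) := by
    intro c d
    apply MvPolynomial.algHom_ext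
    intro j
    have h1 : Φ d (X j) = X j + C (d * v j) * h0 := by simp [Φ]
    have h2 : Φ c (X j) = X j + C (c * v j) * h0 := by simp [Φ]
    have h3 : Φ (c + d) (X j) = X j + C ((c + d) * v j) * h0 := by simp [Φ]
    have h4 : Φ c (C (d * v j)) = C (d * v j) := by
      have hc : (C (d * v j) : MvPolynomial σ ℂ) = algebraMap ℂ _ (d * v j) := rfl
      rw [hc, AlgHom.commutes]
    rw [AlgHom.comp_apply, h1, map_add, map_mul, h2, h3, h4, hΦh]
    simp only [add_mul, C_add]
    ring
  have hΦ0 : Φ 0 = AlgHom.id ℂ _ := by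
    ext j
    simp [Φ]
  let Ψ : MvPolynomial σ ℂ ≃ₐ[ℂ] MvPolynomial σ ℂ :=
    AlgEquiv.ofAlgHom (Φ (1 / γ)) (Φ (-(1 / γ)))
      (by rw [hΦΦ, add_neg_cancel, hΦ0])
      (by rw [hΦΦ, neg_add_cancel, hΦ0])
  have hcoord : IsCoordinate (Ψ (X k)) := ⟨Ψ, k, rfl⟩
  have hfin : C μ * Ψ (X k) = f := by
    have : Ψ (X k) = X k + C ((1 / γ) * v k) * h0 := by
      show Φ (1 / γ) (X k) = _
      simp only [Φ, aeval_X]
    rw [this, mul_add, ← mul_assoc, ← C_mul]
    have h3 : μ * ((1 / γ) * v k) = 1 := by
      rw [hμdef]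
      field_simp
    rw [h3, hh0]
    simp
  rw [← hfin]
  exact hcoord.C_mul hμ

end Vale.Agent.Lib.P295
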