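import Vale.Agent.Lib.P295.Basic

/-!
Stable coordinates have no critical points; polynomials of degree at most two, and weighted
homogeneous polynomials with positive weights, without critical points, are coordinates.
-/

namespace Vale.Agent.Lib.P295

open MvPolynomial

/-- A stable coordinate has no critical point. -/
theorem IsStableCoordinate.noCritical {n : ℕ} {f : MvPolynomial (Fin n) ℂ}
    (hf : IsStableCoordinate f) (x : Fin n → ℂ) : ∃ i, eval x (pderiv i f) ≠ 0 := by
  classical
  obtain ⟨m, -, φ, i, hi⟩ := hf
  obtain ⟨k, hk⟩ := exists_pderiv_ne_zero φ i (Sum.elim x 0)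
  rw [hi] at hk
  cases k with
  | inl s =>
    refine ⟨s, ?_⟩
    rw [pderiv_rename Sum.inl_injective, eval_rename] at hk
    simpa using hk
  | inr s =>
    exfalso
    apply hk
    have : pderiv (Sum.inr s) (rename (Sum.inl : Fin n → Fin n ⊕ Fin m) f) = 0 := by
      apply pderiv_eq_zero_of_notMem_vars
      intro hmem
      have := vars_rename (Sum.inl : Fin n → Fin n ⊕ Fin m) f hmem
      simp at this
    rw [this]
    simp

/-- A coordinate of a polynomial ring in finitely many variables has no critical point. -/
theorem IsCoordinate.noCritical {σ : Type} [Fintype σ] {f : MvPolynomial σ ℂ}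
    (hf : IsCoordinate f) (x : σ → ℂ) : ∃ i, eval x (pderiv i f) ≠ 0 := by
  classical
  obtain ⟨φ, i, hi⟩ := hf
  rw [← hi]
  exact exists_pderiv_ne_zero φ i x

variable {σ : Type} [Fintype σ]

/-- A polynomial all of whose coefficients in degree at least two vanish is affine linear. -/
lemma eq_affine_of_coeff [DecidableEq σ] (g : MvPolynomial σ ℂ)
    (hg : ∀ m : σ →₀ ℕ, 2 ≤ ∑ i ∈ m.support, m i → coeff m g = 0) :
    g = C (coeff 0 g) + ∑ j, C (coeff (Finsupp.single j 1) g) * X j := by
  classical
  ext m
  rw [coeff_add, coeff_C, coeff_sum]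
  simp only [coeff_C_mul, coeff_X]
  by_cases hm0 : m = 0
  · subst hm0
    simp
  · obtain ⟨a, ha⟩ : ∃ a, m a ≠ 0 := by
      by_contra h
      push Not at h
      exact hm0 (Finsupp.ext h)
    have ha' : a ∈ m.support := Finsupp.mem_support_iff.mpr ha
    by_cases hs : m = Finsupp.single a 1
    · subst hs
      have h0 : ¬ (0 = Finsupp.single a 1) := by
        intro h
        exact hm0 h.symm
      rw [if_neg h0, zero_add, Finset.sum_eq_single a]
      · simp
      · intro b _ hb
        rw [if_neg]
        · simp
        · intro hab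
          have := Finsupp.single_left_injective (one_ne_zero (α := ℕ)) hab
          exact hb this
      · simp
    · -- degree at least two
      have h2 : 2 ≤ ∑ i ∈ m.support, m i := by
        by_contra hlt
        push Not at hlt
        apply hs
        have hsum : m a ≤ ∑ i ∈ m.support, m i :=
          Finset.single_le_sum (f := fun i => m i) (fun _ _ => Nat.zero_le _) ha'
        have hma : m a = 1 := by omega
        ext b
        by_cases hb : b = a
        · subst hb
          simp [hma]
        · have hb' : m b = 0 := by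
            by_contra hne
            have hbm : b ∈ m.support := Finsupp.mem_support_iff.mpr hne
            have h3 : m a + m b ≤ ∑ i ∈ m.support, m i := by
              have := Finset.sum_le_sum_of_subset (f := fun i => m i)
                (s := {a, b}) (t := m.support) (by
                  intro c hc
                  simp only [Finset.mem_insert, Finset.mem_singleton] at hc
                  rcases hc with rfl | rfl <;> assumption)
              rw [Finset.sum_pair (Ne.symm hb)] at this
              exact this
            omega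
          simp [hb', Ne.symm hb]
      rw [hg m h2]
      rw [if_neg (Ne.symm hm0)]
      rw [zero_add]
      symm
      apply Finset.sum_eq_zero
      intro j _
      rw [if_neg]
      · simp
      · intro hj
        have hjm : m = Finsupp.single j 1 := hj.symm
        have : j = a := by
          by_contra hne
          rw [hjm, Finsupp.single_apply, if_neg hne] at ha
          exact ha rfl
        subst this
        exact hs hjm

/-- A polynomial of total degree at most two without critical points has a nonzero constant
derivative in some direction. -/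
theorem exists_directional_of_degree_le_two [DecidableEq σ] (f : MvPolynomial σ ℂ)
    (hdeg : f.totalDegree ≤ 2) (hcrit : ∀ x : σ → ℂ, ∃ i, eval x (pderiv i f) ≠ 0) :
    ∃ (v : σ → ℂ) (γ : ℂ), γ ≠ 0 ∧ ∑ i, C (v i) * pderiv i f = C γ := by
  classical
  have haff : ∀ i, pderiv i f = C (coeff 0 (pderiv i f)) +
      ∑ j, C (coeff (Finsupp.single j 1) (pderiv i f)) * X j := by
    intro i
    apply eq_affine_of_coeff
    intro m hm
    rw [coeff_pderiv]
    have : coeff (m + Finsupp.single i 1) f = 0 := by
      apply coeff_eq_zero_of_totalDegree_lt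
      have h1 : ∑ j ∈ (m + Finsupp.single i 1 : σ →₀ ℕ).support,
          (m + Finsupp.single i 1 : σ →₀ ℕ) j = (∑ j ∈ m.support, m j) + 1 := by
        have e1 : ∀ p : σ →₀ ℕ, ∑ j ∈ p.support, p j = p.sum fun _ e => e := fun p => rfl
        rw [e1, e1, Finsupp.sum_add_index' (by simp) (by simp), Finsupp.sum_single_index rfl]
      omega
    rw [this, zero_mul]
  let b : σ → ℂ := fun i => coeff 0 (pderiv i f)
  let A : Matrix σ σ ℂ := fun i j => coeff (Finsupp.single j 1) (pderiv i f)
  have hev : ∀ (x : σ → ℂ) (i : σ), eval x (pderiv i f) = b i + A.mulVec x i := by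
    intro x i
    conv_lhs => rw [haff i]
    simp [b, A, Matrix.mulVec, dotProduct]
  let W : Submodule ℂ (σ → ℂ) := LinearMap.range A.mulVecLin
  have hb : b ∉ W := by
    rintro ⟨p, hp⟩
    obtain ⟨i, hi⟩ := hcrit (-p)
    apply hi
    rw [hev, Matrix.mulVec_neg]
    have : A.mulVec p = b := hp
    rw [this]
    simp
  obtain ⟨φ, hφb, hφW⟩ := Submodule.exists_dual_map_eq_bot_of_notMem hb inferInstance
  have hφ0 : ∀ p, φ (A.mulVec p) = 0 := by
    intro p
    have hmem : φ (A.mulVec p) ∈ W.map φ := ⟨A.mulVec p, ⟨p, rfl⟩, rfl⟩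
    rw [hφW] at hmem
    simpa using hmem
  let v : σ → ℂ := fun i => φ (Pi.single i 1)
  have hφv : ∀ w : σ → ℂ, φ w = ∑ i, v i * w i := by
    intro w
    rw [LinearMap.pi_apply_eq_sum_univ φ w]
    simp only [smul_eq_mul, v]
    refine Finset.sum_congr rfl fun i _ => ?_
    rw [mul_comm]
    congr 2
    funext j
    simp [Pi.single_apply, eq_comm]
  refine ⟨v, φ b, hφb, ?_⟩
  apply MvPolynomial.funext
  intro x
  rw [map_sum]
  simp only [map_mul, eval_C, hev]
  have : φ (b + A.mulVec x) = ∑ i, v i * (b i + A.mulVec x i) := by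
    rw [hφv]
    rfl
  rw [← this, map_add, hφ0, add_zero]

/-- A weighted homogeneous polynomial with positive weights that has no critical point at the
origin has a nonzero constant partial derivative. -/
theorem exists_directional_of_weighted [DecidableEq σ] (f : MvPolynomial σ ℂ) (w : σ → ℕ)
    (hw : ∀ i, 0 < w i) {d : ℕ} (hf : IsWeightedHomogeneous w f d)
    (hcrit : ∃ i, eval (0 : σ → ℂ) (pderiv i f) ≠ 0) :
    ∃ (v : σ → ℂ) (γ : ℂ), γ ≠ 0 ∧ ∑ i, C (v i) * pderiv i f = C γ := by
  classical
  obtain ⟨i, hi⟩ := hcrit
  have hc0 : eval (0 : σ → ℂ) (pderiv i f) = coeff 0 (pderiv i f) := by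
    rw [eval_zero, constantCoeff_eq]
  have hγ0 : coeff 0 (pderiv i f) = coeff (Finsupp.single i 1) f := by
    rw [coeff_pderiv]
    simp
  set γ := coeff (Finsupp.single i 1) f with hγdef
  have hγ : γ ≠ 0 := by
    rw [← hγ0, ← hc0]
    exact hi
  have hs : Finsupp.weight w (Finsupp.single i 1) = w i := by
    rw [Finsupp.weight_apply, Finsupp.sum_single_index] <;> simp
  have hwi : w i = d := by
    have := hf hγ
    rw [hs] at this
    exact this
  have hderiv : pderiv i f = C γ := by
    ext m
    rw [coeff_pderiv, coeff_C]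
    by_cases hm : m = 0
    · subst hm
      simp [hγdef]
    · rw [if_neg (Ne.symm hm)]
      have hz : coeff (m + Finsupp.single i 1) f = 0 := by
        by_contra hne
        have h1 := hf hne
        rw [map_add, hs] at h1
        have h2 : Finsupp.weight w m = 0 := by
          omega
        apply hm
        ext a
        by_contra ha
        have ha' : a ∈ m.support := Finsupp.mem_support_iff.mpr ha
        rw [Finsupp.weight_apply] at h2
        have h3 := Finset.single_le_sum (f := fun i => m i • w i)
          (fun _ _ => Nat.zero_le _) ha'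
        have h4 : m a • w a ≤ 0 := by
          have h2' : (∑ b ∈ m.support, m b • w b) = 0 := h2
          have h3' : m a • w a ≤ ∑ b ∈ m.support, m b • w b := h3
          rwa [h2'] at h3'
        have h5 : 0 < m a • w a := by
          simp only [smul_eq_mul]
          exact Nat.mul_pos (Nat.pos_of_ne_zero ha) (hw a)
        omega
      rw [hz, zero_mul]
  refine ⟨Pi.single i 1, γ, hγ, ?_⟩
  rw [Finset.sum_eq_single i]
  · simp [hderiv]
  · intro b _ hb
    simp [hb]
  · simp

/-- Every coordinate of `ℂ[x_1,…,x_n]` is a `1`-stable coordinate. -/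
theorem IsCoordinate.isStable {n : ℕ} {f : MvPolynomial (Fin n) ℂ} (hf : IsCoordinate f) :
    IsStableCoordinate f := by
  classical
  obtain ⟨φ, i, hi⟩ := hf
  let E : (MvPolynomial (Fin n) ℂ →ₐ[ℂ] MvPolynomial (Fin n) ℂ) →
      (MvPolynomial (Fin n ⊕ Fin 1) ℂ →ₐ[ℂ] MvPolynomial (Fin n ⊕ Fin 1) ℂ) := fun ψ =>
    aeval (Sum.elim (fun j => rename Sum.inl (ψ (X j))) (fun j => X (Sum.inr j)))
  have hE : ∀ (ψ : MvPolynomial (Fin n) ℂ →ₐ[ℂ] MvPolynomial (Fin n) ℂ) p,
      E ψ (rename Sum.inl p) = rename Sum.inl (ψ p) := by
    intro ψ p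
    induction p using MvPolynomial.induction_on with
    | C a => simp [E]
    | add p q hp hq => simp only [map_add, hp, hq]
    | mul_X p j hp => simp only [map_mul, hp, rename_X]; simp [E]
  have hcomp : ∀ ψ ψ' : MvPolynomial (Fin n) ℂ →ₐ[ℂ] MvPolynomial (Fin n) ℂ,
      (E ψ).comp (E ψ') = E (ψ.comp ψ') := by
    intro ψ ψ'
    apply MvPolynomial.algHom_ext
    intro j
    cases j with
    | inl j =>
      simp only [AlgHom.comp_apply]
      have h1 : E ψ' (X (Sum.inl j)) = rename Sum.inl (ψ' (X j)) := by simp [E]
      have h2 : E (ψ.comp ψ') (X (Sum.inl j)) = rename Sum.inl (ψ (ψ' (X j))) := by simp [E]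
      rw [h1, h2, hE]
    | inr j =>
      simp [E]
  have hid : E (AlgHom.id ℂ _) = AlgHom.id ℂ _ := by
    apply MvPolynomial.algHom_ext
    intro j
    cases j <;> simp [E]
  let Φ : MvPolynomial (Fin n ⊕ Fin 1) ℂ ≃ₐ[ℂ] MvPolynomial (Fin n ⊕ Fin 1) ℂ :=
    AlgEquiv.ofAlgHom (E φ) (E φ.symm)
      (by
        rw [hcomp, ← hid]
        congr 1
        ext j
        simp)
      (by
        rw [hcomp, ← hid]
        congr 1
        ext j
        simp)
  refine ⟨1, le_refl 1, Φ, Sum.inl i, ?_⟩
  show E φ (X (Sum.inl i)) = _
  simp [E, hi]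

/-- For a polynomial of total degree at most two, or a weighted homogeneous polynomial with
positive weights, being a coordinate, being a stable coordinate and having no critical point are
equivalent. -/
theorem tfae_of_class {n : ℕ} (f : MvPolynomial (Fin n) ℂ)
    (hclass : f.totalDegree ≤ 2 ∨
      ∃ (w : Fin n → ℕ) (d : ℕ), (∀ i, 0 < w i) ∧ IsWeightedHomogeneous w f d) :
    List.TFAE [IsCoordinate f, IsStableCoordinate f, ∀ x : Fin n → ℂ, ∃ i, eval x (pderiv i f) ≠ 0] := by
  tfae_have 1 → 2 := IsCoordinate.isStable
  tfae_have 2 → 3 := IsStableCoordinate.noCritical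
  tfae_have 3 → 1 := by
    intro hcrit
    have : ∃ (v : Fin n → ℂ) (γ : ℂ), γ ≠ 0 ∧ ∑ i, C (v i) * pderiv i f = C γ := by
      rcases hclass with hdeg | ⟨w, d, hw, hf⟩
      · exact exists_directional_of_degree_le_two f hdeg hcrit
      · exact exists_directional_of_weighted f w hw hf (hcrit 0)
    obtain ⟨v, γ, hγ, h⟩ := this
    exact isCoordinate_of_directional f v hγ h
  tfae_finish

end Vale.Agent.Lib.P295
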