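import Mathlib

/-!
Definitions for problem P295 (stable coordinates of complex polynomial rings).
-/

namespace Vale.Agent.Lib.P295

open MvPolynomial

/-- `f` is a coordinate (variable) of the polynomial ring `ℂ[x_i : i ∈ σ]`: some `ℂ`-algebra
automorphism of the ring sends one of the variables to `f`. -/
def IsCoordinate {σ : Type} (f : MvPolynomial σ ℂ) : Prop :=
  ∃ (φ : MvPolynomial σ ℂ ≃ₐ[ℂ] MvPolynomial σ ℂ) (i : σ), φ (X i) = f

/-- `f ∈ ℂ[x_1,…,x_n]` is an `m`-stable coordinate: it is a coordinate of the polynomial ring in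
the variables `x_1,…,x_n,w_1,…,w_m`. -/
def IsMStableCoordinate {n : ℕ} (m : ℕ) (f : MvPolynomial (Fin n) ℂ) : Prop :=
  IsCoordinate (rename (Sum.inl : Fin n → Fin n ⊕ Fin m) f)

/-- `f ∈ ℂ[x_1,…,x_n]` is a stable coordinate: it is an `m`-stable coordinate for some `m ≥ 1`. -/
def IsStableCoordinate {n : ℕ} (f : MvPolynomial (Fin n) ℂ) : Prop :=
  ∃ m : ℕ, 1 ≤ m ∧ IsMStableCoordinate m f

end Vale.Agent.Lib.P295
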