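import Vale.Agent.Lib.P295.Defs

/-!
A family of coordinates of `ℂ[x,y,z,u]` of Vénéreau type.
For `3e ≤ 2m` and any `φ ∈ ℂ[s,t]`, the polynomial
`y + x^m (x^e z + y φ(x, y u + z²))` is sent to by an automorphism fixing `x`.
The automorphism is a composition of two automorphisms that fix the pair of invariants
`Q = x^e z + y f`, `R = x^{2e} u - 2 x^e z f - y f²` up to an explicit shear,
where `f = φ(x, P)` and `P = y u + z²`.
-/

namespace Vale.Agent.Lib.P295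

open MvPolynomial

/-- The polynomial ring in the four variables `x = X 0, y = X 1, z = X 2, u = X 3`. -/
abbrev R4 : Type := MvPolynomial (Fin 4) ℂ

/-- The value `φ(x, p)` for `p` in the ring `R4`. -/
noncomputable def fval (φ : MvPolynomial (Fin 2) ℂ) (p : R4) : R4 :=
  aeval ![X 0, p] φ

/-- The invariant `P = y u + z²`. -/
noncomputable def bigP : R4 := X 1 * X 3 + X 2 ^ 2

/-- The invariant `Q = a z + y f`, with `f = φ(x, P)`. -/
noncomputable def bigQ (φ : MvPolynomial (Fin 2) ℂ) (a : R4) : R4 :=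
  a * X 2 + X 1 * fval φ bigP

/-- The invariant `R = a² u - 2 a z f - y f²`, with `f = φ(x, P)`. -/
noncomputable def bigR (φ : MvPolynomial (Fin 2) ℂ) (a : R4) : R4 :=
  a ^ 2 * X 3 - 2 * a * X 2 * fval φ bigP - X 1 * (fval φ bigP) ^ 2

/-- The endomorphism of `R4` fixing `x` with prescribed images of `y, z, u`. -/
noncomputable def endo (y' z' u' : R4) : R4 →ₐ[ℂ] R4 :=
  aeval ![X 0, y', z', u']

lemma endo_x (y' z' u' : R4) : endo y' z' u' (X 0) = X 0 := by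
  simp [endo]

lemma endo_y (y' z' u' : R4) : endo y' z' u' (X 1) = y' := by
  simp [endo]

lemma endo_z (y' z' u' : R4) : endo y' z' u' (X 2) = z' := by
  simp [endo]

lemma endo_u (y' z' u' : R4) : endo y' z' u' (X 3) = u' := by
  simp [endo]

/-- An algebra map fixing `x` commutes with `fval`. -/
lemma map_fval (θ : R4 →ₐ[ℂ] R4) (hx : θ (X 0) = X 0) (φ : MvPolynomial (Fin 2) ℂ) (p : R4) :
    θ (fval φ p) = fval φ (θ p) := by
  unfold fval
  have h : ∀ q : MvPolynomial (Fin 2) ℂ, θ (aeval ![X 0, p] q) = aeval ![X 0, θ p] q := by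
    intro q
    induction q using MvPolynomial.induction_on with
    | C c => simp
    | add q r hq hr => simp only [map_add, hq, hr]
    | mul_X q j hq =>
      simp only [map_mul, hq, aeval_X]
      congr 1
      fin_cases j
      · simpa using hx
      · simp
  exact h φ

/-- Divided differences of `fval`. -/
lemma fval_sub (φ : MvPolynomial (Fin 2) ℂ) (a b : R4) :
    ∃ ψ : R4, fval φ (b + a) = fval φ b + a * ψ := by
  unfold fval
  induction φ using MvPolynomial.induction_on with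
  | C c => exact ⟨0, by simp⟩
  | add q r hq hr =>
    obtain ⟨s, hs⟩ := hq
    obtain ⟨t, ht⟩ := hr
    exact ⟨s + t, by rw [map_add, map_add, hs, ht]; ring⟩
  | mul_X q j hq =>
    obtain ⟨s, hs⟩ := hq
    fin_cases j
    · exact ⟨s * X 0, by simp only [map_mul, hs, aeval_X]; simp; ring⟩
    · refine ⟨s * (b + a) + aeval ![X 0, b] q, ?_⟩
      simp only [map_mul, hs, aeval_X]
      simp
      ring

/-- The quadratic relation among the invariants. -/
lemma rel_PQR (φ : MvPolynomial (Fin 2) ℂ) (a : R4) :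
    bigQ φ a ^ 2 + X 1 * bigR φ a = a ^ 2 * bigP := by
  unfold bigQ bigR bigP
  ring

/-- An endomorphism fixing `x, y` and the invariants `Q, R` is the identity. -/
lemma eq_id_of_fix (φ : MvPolynomial (Fin 2) ℂ) {a : R4} (ha : a ≠ 0)
    (θ : R4 →ₐ[ℂ] R4) (hx : θ (X 0) = X 0) (ha' : θ a = a) (hy : θ (X 1) = X 1)
    (hQ : θ (bigQ φ a) = bigQ φ a) (hR : θ (bigR φ a) = bigR φ a) :
    θ = AlgHom.id ℂ R4 := by
  have ha2 : a ^ 2 ≠ 0 := pow_ne_zero 2 ha
  have hP : θ bigP = bigP := by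
    have h := congrArg θ (rel_PQR φ a)
    simp only [map_add, map_mul, map_pow, hQ, hR, hy, ha'] at h
    rw [rel_PQR] at h
    exact (mul_left_cancel₀ ha2 h).symm
  have hf : θ (fval φ bigP) = fval φ bigP := by
    rw [map_fval θ hx, hP]
  have hz : θ (X 2) = X 2 := by
    have h := hQ
    unfold bigQ at h
    simp only [map_add, map_mul, ha', hy, hf] at h
    exact mul_left_cancel₀ ha (add_right_cancel h)
  have hu : θ (X 3) = X 3 := by
    have h := hR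
    unfold bigR at h
    simp only [map_sub, map_mul, map_pow, ha', hy, hf, hz, map_ofNat] at h
    exact mul_left_cancel₀ ha2 (sub_left_inj.mp (sub_left_inj.mp h))
  apply MvPolynomial.algHom_ext
  intro i
  fin_cases i
  · simpa using hx
  · simpa using hy
  · simpa using hz
  · simpa using hu

/-- An element fixed by every endomorphism fixing `x`: a scalar times a power of `x`. -/
noncomputable def xmon (c : ℂ) (k : ℕ) : R4 := C c * X 0 ^ k

lemma map_xmon (θ : R4 →ₐ[ℂ] R4) (hx : θ (X 0) = X 0) (c : ℂ) (k : ℕ) :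
    θ (xmon c k) = xmon c k := by
  unfold xmon
  simp [hx]

/-- The shear of the first kind: it moves `Q` by `t a R` and fixes `R`. -/
lemma exists_psi (φ : MvPolynomial (Fin 2) ℂ) (a t : R4)
    (ha : ∀ θ : R4 →ₐ[ℂ] R4, θ (X 0) = X 0 → θ a = a) :
    ∃ θ : R4 →ₐ[ℂ] R4, θ (X 0) = X 0 ∧
      θ (X 1) = X 1 + 2 * t * a * bigQ φ a - t ^ 2 * a ^ 2 * bigR φ a ∧
      θ (bigQ φ a) = bigQ φ a - t * a * bigR φ a ∧
      θ (bigR φ a) = bigR φ a := by
  set f := fval φ bigP with hfdef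
  set Q := bigQ φ a with hQdef
  set R := bigR φ a with hRdef
  let y' := X 1 + 2 * t * a * Q - t ^ 2 * a ^ 2 * R
  let z' := X 2 - t * (R + 2 * Q * f) + t ^ 2 * a * R * f
  let u' := X 3 - 2 * t * f * (a * X 3 - X 2 * f) + t ^ 2 * R * f ^ 2
  let θ := endo y' z' u'
  have hx : θ (X 0) = X 0 := endo_x _ _ _
  have hy : θ (X 1) = y' := endo_y _ _ _
  have hz : θ (X 2) = z' := endo_z _ _ _
  have hu : θ (X 3) = u' := endo_u _ _ _
  have hP : θ bigP = bigP := by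
    have h1 : θ bigP = y' * u' + z' ^ 2 := by
      unfold bigP
      simp only [map_add, map_mul, map_pow, hy, hz, hu]
    rw [h1]
    simp only [y', z', u', hQdef, hRdef, bigQ, bigR, ← hfdef]
    unfold bigP
    ring
  have hf : θ f = f := by
    rw [hfdef, map_fval θ hx, hP]
  have haθ := ha θ hx
  refine ⟨θ, hx, hy, ?_, ?_⟩
  · have h1 : θ Q = a * z' + y' * f := by
      rw [hQdef]
      unfold bigQ
      rw [← hfdef]
      simp only [map_add, map_mul, haθ, hy, hz, hf]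
    rw [h1]
    simp only [y', z', hQdef, hRdef, bigQ, bigR, ← hfdef]
    ring
  · have h1 : θ R = a ^ 2 * u' - 2 * a * z' * f - y' * f ^ 2 := by
      rw [hRdef]
      unfold bigR
      rw [← hfdef]
      simp only [map_sub, map_mul, map_pow, haθ, hy, hz, hu, hf, map_ofNat]
    rw [h1]
    simp only [y', z', u', hQdef, hRdef, bigQ, bigR, ← hfdef]
    ring

/-- The shear of the second kind: it moves `y` by `a³ g R` and fixes `Q, R`. -/
lemma exists_xi (φ : MvPolynomial (Fin 2) ℂ) (a g : R4)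
    (ha : ∀ θ : R4 →ₐ[ℂ] R4, θ (X 0) = X 0 → θ a = a) :
    ∃ θ : R4 →ₐ[ℂ] R4, θ (X 0) = X 0 ∧
      θ (X 1) = X 1 + a ^ 3 * g * bigR φ a ∧
      θ (bigQ φ a) = bigQ φ a ∧
      θ (bigR φ a) = bigR φ a := by
  set f := fval φ bigP with hfdef
  set Q := bigQ φ a with hQdef
  set R := bigR φ a with hRdef
  obtain ⟨ψ, hψ⟩ := fval_sub φ (a * g * R ^ 2) bigP
  set f' := fval φ (bigP + a * g * R ^ 2) with hf'def
  let y' := X 1 + a ^ 3 * g * R
  let z' := X 2 - a ^ 2 * g * R * f' - X 1 * g * R ^ 2 * ψ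
  let u' := X 3 + g * R ^ 2 * ψ * (2 * X 2 - X 1 * g * R ^ 2 * ψ) - a * g * R * f' ^ 2
  let θ := endo y' z' u'
  have hx : θ (X 0) = X 0 := endo_x _ _ _
  have hy : θ (X 1) = y' := endo_y _ _ _
  have hz : θ (X 2) = z' := endo_z _ _ _
  have hu : θ (X 3) = u' := endo_u _ _ _
  have hP : θ bigP = bigP + a * g * R ^ 2 := by
    have h1 : θ bigP = y' * u' + z' ^ 2 := by
      unfold bigP
      simp only [map_add, map_mul, map_pow, hy, hz, hu]
    rw [h1]
    simp only [y', z', u', hψ, hRdef, bigR, ← hfdef]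
    unfold bigP
    ring
  have hf : θ f = f' := by
    rw [hfdef, map_fval θ hx, hP]
  have haθ := ha θ hx
  refine ⟨θ, hx, hy, ?_, ?_⟩
  · have h1 : θ Q = a * z' + y' * f' := by
      rw [hQdef]
      unfold bigQ
      rw [← hfdef]
      simp only [map_add, map_mul, haθ, hy, hz, hf]
    rw [h1]
    simp only [y', z', hψ, hQdef, hRdef, bigQ, bigR, ← hfdef]
    ring
  · have h1 : θ R = a ^ 2 * u' - 2 * a * z' * f' - y' * f' ^ 2 := by
      rw [hRdef]
      unfold bigR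
      rw [← hfdef]
      simp only [map_sub, map_mul, map_pow, haθ, hy, hz, hu, hf, map_ofNat]
    rw [h1]
    simp only [y', z', u', hψ, hRdef, bigR, ← hfdef]
    ring

/-- The shear of the first kind is invertible. -/
lemma exists_psi_equiv (φ : MvPolynomial (Fin 2) ℂ) {a : R4} (t : R4) (ha0 : a ≠ 0)
    (ha : ∀ θ : R4 →ₐ[ℂ] R4, θ (X 0) = X 0 → θ a = a)
    (ht : ∀ θ : R4 →ₐ[ℂ] R4, θ (X 0) = X 0 → θ t = t) :
    ∃ Θ : R4 ≃ₐ[ℂ] R4, Θ (X 0) = X 0 ∧
      Θ (X 1) = X 1 + 2 * t * a * bigQ φ a - t ^ 2 * a ^ 2 * bigR φ a ∧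
      Θ (bigR φ a) = bigR φ a := by
  obtain ⟨θ₁, h1x, h1y, h1Q, h1R⟩ := exists_psi φ a t ha
  obtain ⟨θ₂, h2x, h2y, h2Q, h2R⟩ := exists_psi φ a (-t) ha
  have key : ∀ (σ τ : R4 →ₐ[ℂ] R4) (s : R4), σ (X 0) = X 0 → τ (X 0) = X 0 →
      (∀ θ : R4 →ₐ[ℂ] R4, θ (X 0) = X 0 → θ s = s) →
      σ (X 1) = X 1 + 2 * s * a * bigQ φ a - s ^ 2 * a ^ 2 * bigR φ a →
      τ (X 1) = X 1 + 2 * (-s) * a * bigQ φ a - (-s) ^ 2 * a ^ 2 * bigR φ a →
      σ (bigQ φ a) = bigQ φ a - s * a * bigR φ a →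
      τ (bigQ φ a) = bigQ φ a - (-s) * a * bigR φ a →
      σ (bigR φ a) = bigR φ a → τ (bigR φ a) = bigR φ a →
      σ.comp τ = AlgHom.id ℂ R4 := by
    intro σ τ s hσx hτx hs hσy hτy hσQ hτQ hσR hτR
    have hcx : (σ.comp τ) (X 0) = X 0 := by
      simp [hτx, hσx]
    refine eq_id_of_fix φ ha0 (σ.comp τ) hcx (ha _ hcx) ?_ ?_ ?_
    · simp only [AlgHom.comp_apply, hτy, map_add, map_sub, map_mul, map_pow, map_neg, map_ofNat,
        hσy, hσQ, hσR, ha σ hσx, hs σ hσx]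
      ring
    · simp only [AlgHom.comp_apply, hτQ, map_sub, map_mul, map_neg, hσQ, hσR, ha σ hσx, hs σ hσx]
      ring
    · simp only [AlgHom.comp_apply, hτR, hσR]
  have ht' : ∀ θ : R4 →ₐ[ℂ] R4, θ (X 0) = X 0 → θ (-t) = -t := by
    intro θ hx
    rw [map_neg, ht θ hx]
  have hy' : θ₁ (X 1) = X 1 + 2 * (- -t) * a * bigQ φ a - (- -t) ^ 2 * a ^ 2 * bigR φ a := by
    rw [neg_neg]; exact h1y
  have hQ' : θ₁ (bigQ φ a) = bigQ φ a - (- -t) * a * bigR φ a := by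
    rw [neg_neg]; exact h1Q
  exact ⟨AlgEquiv.ofAlgHom θ₁ θ₂
    (key θ₁ θ₂ t h1x h2x ht h1y h2y h1Q h2Q h1R h2R)
    (key θ₂ θ₁ (-t) h2x h1x ht' h2y hy' h2Q hQ' h2R h1R), h1x, h1y, h1R⟩

/-- The shear of the second kind is invertible. -/
lemma exists_xi_equiv (φ : MvPolynomial (Fin 2) ℂ) {a : R4} (g : R4) (ha0 : a ≠ 0)
    (ha : ∀ θ : R4 →ₐ[ℂ] R4, θ (X 0) = X 0 → θ a = a)
    (hg : ∀ θ : R4 →ₐ[ℂ] R4, θ (X 0) = X 0 → θ g = g) :
    ∃ Θ : R4 ≃ₐ[ℂ] R4, Θ (X 0) = X 0 ∧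
      Θ (X 1) = X 1 + a ^ 3 * g * bigR φ a := by
  obtain ⟨θ₁, h1x, h1y, h1Q, h1R⟩ := exists_xi φ a g ha
  obtain ⟨θ₂, h2x, h2y, h2Q, h2R⟩ := exists_xi φ a (-g) ha
  have key : ∀ (σ τ : R4 →ₐ[ℂ] R4) (s : R4), σ (X 0) = X 0 → τ (X 0) = X 0 →
      (∀ θ : R4 →ₐ[ℂ] R4, θ (X 0) = X 0 → θ s = s) →
      σ (X 1) = X 1 + a ^ 3 * s * bigR φ a →
      τ (X 1) = X 1 + a ^ 3 * (-s) * bigR φ a →
      σ (bigQ φ a) = bigQ φ a → τ (bigQ φ a) = bigQ φ a →
      σ (bigR φ a) = bigR φ a → τ (bigR φ a) = bigR φ a →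
      σ.comp τ = AlgHom.id ℂ R4 := by
    intro σ τ s hσx hτx hs hσy hτy hσQ hτQ hσR hτR
    have hcx : (σ.comp τ) (X 0) = X 0 := by
      simp [hτx, hσx]
    refine eq_id_of_fix φ ha0 (σ.comp τ) hcx (ha _ hcx) ?_ ?_ ?_
    · simp only [AlgHom.comp_apply, hτy, map_add, map_mul, map_pow, map_neg,
        hσy, hσR, ha σ hσx, hs σ hσx]
      ring
    · simp only [AlgHom.comp_apply, hτQ, hσQ]
    · simp only [AlgHom.comp_apply, hτR, hσR]
  have hg' : ∀ θ : R4 →ₐ[ℂ] R4, θ (X 0) = X 0 → θ (-g) = -g := by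
    intro θ hx
    rw [map_neg, hg θ hx]
  have hy' : θ₁ (X 1) = X 1 + a ^ 3 * (- -g) * bigR φ a := by
    rw [neg_neg]; exact h1y
  exact ⟨AlgEquiv.ofAlgHom θ₁ θ₂
    (key θ₁ θ₂ g h1x h2x hg h1y h2y h1Q h2Q h1R h2R)
    (key θ₂ θ₁ (-g) h2x h1x hg' h2y hy' h2Q h1Q h2R h1R), h1x, h1y⟩

/-- The main construction. For `3e ≤ 2m` and any `φ`, the polynomial
`y + x^m (x^e z + y φ(x, y u + z²))` is the image of `y` under an automorphism fixing `x`. -/
theorem exists_equiv_family (m e : ℕ) (h : 3 * e ≤ 2 * m) (φ : MvPolynomial (Fin 2) ℂ) :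
    ∃ Φ : R4 ≃ₐ[ℂ] R4, Φ (X 0) = X 0 ∧
      Φ (X 1) = X 1 + X 0 ^ m *
        (X 0 ^ e * X 2 + X 1 * aeval ![X 0, X 1 * X 3 + X 2 ^ 2] φ) := by
  have hem : e ≤ m := by omega
  have h3 : 3 * e ≤ 2 * m := h
  set a : R4 := X 0 ^ e with hadef
  have ha0 : a ≠ 0 := pow_ne_zero _ (X_ne_zero _)
  have ha : ∀ θ : R4 →ₐ[ℂ] R4, θ (X 0) = X 0 → θ a = a := by
    intro θ hx
    rw [hadef, map_pow, hx]
  set t : R4 := xmon (1 / 2) (m - e) with htdef
  set g : R4 := xmon (1 / 4) (2 * m - 3 * e) with hgdef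
  obtain ⟨Ψ, hΨx, hΨy, hΨR⟩ := exists_psi_equiv φ t ha0 ha (fun θ hx => map_xmon θ hx _ _)
  obtain ⟨Ξ, hΞx, hΞy⟩ := exists_xi_equiv φ g ha0 ha (fun θ hx => map_xmon θ hx _ _)
  have hΨcx : (Ψ : R4 →ₐ[ℂ] R4) (X 0) = X 0 := hΨx
  have hta : 2 * t * a = X 0 ^ m := by
    have h2 : (C (1 / 2 : ℂ) : R4) * 2 = 1 := by
      have : (2 : R4) = C 2 := (map_ofNat C 2).symm
      rw [this, ← C_mul]
      norm_num
    calc 2 * t * a = (C (1 / 2 : ℂ) * 2) * (X 0 ^ (m - e) * X 0 ^ e) := by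
          rw [htdef, hadef]; unfold xmon; ring
      _ = X 0 ^ m := by
          rw [h2, one_mul, ← pow_add]
          congr 1
          omega
  have hquad : t ^ 2 * a ^ 2 = a ^ 3 * g := by
    have h4 : (C (1 / 2 : ℂ) : R4) ^ 2 = C (1 / 4) := by
      rw [← C_pow]
      norm_num
    calc t ^ 2 * a ^ 2 = (C (1 / 2 : ℂ)) ^ 2 * (X 0 ^ (m - e)) ^ 2 * (X 0 ^ e) ^ 2 := by
          rw [htdef, hadef]; unfold xmon; ring
      _ = C (1 / 4) * X 0 ^ (2 * m) := by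
          rw [h4, ← pow_mul, ← pow_mul, mul_assoc, ← pow_add]
          congr 2
          omega
      _ = C (1 / 4) * (X 0 ^ (3 * e) * X 0 ^ (2 * m - 3 * e)) := by
          rw [← pow_add]
          congr 2
          omega
      _ = a ^ 3 * g := by
          rw [hgdef, hadef]; unfold xmon
          rw [← pow_mul, mul_comm e 3]
          ring
  refine ⟨Ξ.trans Ψ, ?_, ?_⟩
  · simp only [AlgEquiv.trans_apply, hΞx, hΨx]
  · have hΨa : Ψ a = a := ha (Ψ : R4 →ₐ[ℂ] R4) hΨcx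
    have hΨg : Ψ g = g := map_xmon (Ψ : R4 →ₐ[ℂ] R4) hΨcx _ _
    simp only [AlgEquiv.trans_apply, hΞy, map_add, map_mul, map_pow, hΨy, hΨR, hΨa, hΨg]
    have hQ : bigQ φ a = a * X 2 + X 1 * aeval ![X 0, X 1 * X 3 + X 2 ^ 2] φ := rfl
    rw [← hQ, ← hta]
    linear_combination (-(bigR φ a)) * hquad

end Vale.Agent.Lib.P295
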