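import Vale.Agent.Lib.P295.Family

/-!
The family of `Family.lean` extended to all `e < m`.
With `a = x^e`, `ρ = x^(2(m-e))/4`, the automorphism is the composition of the shear
`exists_psi_equiv` with an automorphism sending `y` to `y + a² ρ R`. The latter is built from a
polynomial `F(v,s)` solving the fixed point congruence `F + v φ(x, s - ρ F²)² ≡ 0 mod a`,
obtained by finitely many iterations since `x` divides `ρ`.
-/

namespace Vale.Agent.Lib.P295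

open MvPolynomial

lemma prime_x0 : Prime (X 0 : R4) := MvPolynomial.X_prime

lemma x0_not_dvd_y (c : R4) (h : (X 0 : R4) ∣ c) : ¬ (X 0 : R4) ∣ X 1 + c := by
  intro h1
  have h2 : (X 0 : R4) ∣ X 1 := (dvd_add_left h).1 h1
  obtain ⟨g, hg⟩ := h2
  have h3 := congrArg (MvPolynomial.eval (![0, 1, 0, 0] : Fin 4 → ℂ)) hg
  simp at h3

lemma fval_diff (φ : MvPolynomial (Fin 2) ℂ) (p q : R4) :
    ∃ ψ : R4, fval φ p - fval φ q = (p - q) * ψ := by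
  obtain ⟨ψ, h⟩ := fval_sub φ (p - q) q
  refine ⟨ψ, ?_⟩
  rw [show q + (p - q) = p by ring] at h
  rw [h]
  ring

/-- The iterations solving the fixed point congruence. -/
noncomputable def fixIter (φ : MvPolynomial (Fin 2) ℂ) (ρ v s : R4) : ℕ → R4
  | 0 => 0
  | k + 1 => -v * (fval φ (s - ρ * (fixIter φ ρ v s k) ^ 2)) ^ 2

lemma map_fixIter (θ : R4 →ₐ[ℂ] R4) (hx : θ (X 0) = X 0) (φ : MvPolynomial (Fin 2) ℂ)
    {ρ : R4} (hρ : θ ρ = ρ) (v s : R4) (k : ℕ) :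
    θ (fixIter φ ρ v s k) = fixIter φ ρ (θ v) (θ s) k := by
  induction k with
  | zero => simp [fixIter]
  | succ k ih =>
    simp only [fixIter, map_mul, map_neg, map_pow, map_fval θ hx, map_sub, hρ, ih]

lemma fixIter_step (φ : MvPolynomial (Fin 2) ℂ) {ρ : R4} (hρ : (X 0 : R4) ∣ ρ) (v s : R4) (k : ℕ) :
    (X 0 : R4) ^ k ∣ fixIter φ ρ v s (k + 1) - fixIter φ ρ v s k := by
  induction k with
  | zero => simp
  | succ k ih =>
    obtain ⟨c, hc⟩ := ih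
    obtain ⟨r, hr⟩ := hρ
    obtain ⟨ψ, hψ⟩ := fval_diff φ (s - ρ * (fixIter φ ρ v s (k + 1)) ^ 2)
      (s - ρ * (fixIter φ ρ v s k) ^ 2)
    have e2 : fixIter φ ρ v s (k + 1 + 1) =
        -v * (fval φ (s - ρ * (fixIter φ ρ v s (k + 1)) ^ 2)) ^ 2 := rfl
    have e1 : fixIter φ ρ v s (k + 1) =
        -v * (fval φ (s - ρ * (fixIter φ ρ v s k) ^ 2)) ^ 2 := rfl
    generalize fval φ (s - ρ * (fixIter φ ρ v s (k + 1)) ^ 2) = A at *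
    generalize fval φ (s - ρ * (fixIter φ ρ v s k) ^ 2) = B at *
    generalize fixIter φ ρ v s (k + 1 + 1) = F2 at *
    generalize fixIter φ ρ v s (k + 1) = F1 at *
    generalize fixIter φ ρ v s k = F0 at *
    refine ⟨v * r * c * (F1 + F0) * ψ * (A + B), ?_⟩
    have e3 : A - B = -(ρ * (F1 - F0) * (F1 + F0) * ψ) := by
      rw [hψ]; ring
    rw [hc, hr] at e3
    rw [e2, e1] at *
    linear_combination (-v * (A + B)) * e3

lemma fix_dvd (φ : MvPolynomial (Fin 2) ℂ) {ρ : R4} (hρ : (X 0 : R4) ∣ ρ) (v s : R4) (e : ℕ) :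
    (X 0 : R4) ^ e ∣ fixIter φ ρ v s e + v * (fval φ (s - ρ * (fixIter φ ρ v s e) ^ 2)) ^ 2 := by
  have h := fixIter_step φ hρ v s e
  have e1 : fixIter φ ρ v s (e + 1) =
      -v * (fval φ (s - ρ * (fixIter φ ρ v s e) ^ 2)) ^ 2 := rfl
  rw [e1] at h
  have h2 := (dvd_neg).2 h
  have e3 : -(-v * (fval φ (s - ρ * (fixIter φ ρ v s e) ^ 2)) ^ 2 - fixIter φ ρ v s e) =
      fixIter φ ρ v s e + v * (fval φ (s - ρ * (fixIter φ ρ v s e) ^ 2)) ^ 2 := by ring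
  rwa [e3] at h2

/-- Uniqueness of the solution of the fixed point congruence. -/
lemma fix_unique (φ : MvPolynomial (Fin 2) ℂ) {ρ : R4} (hρ : (X 0 : R4) ∣ ρ) (e : ℕ)
    (Y s F G : R4)
    (hF : (X 0 : R4) ^ e ∣ F + Y * (fval φ (s - ρ * F ^ 2)) ^ 2)
    (hG : (X 0 : R4) ^ e ∣ G + Y * (fval φ (s - ρ * G ^ 2)) ^ 2) :
    (X 0 : R4) ^ e ∣ F - G := by
  obtain ⟨ψ, hψ⟩ := fval_diff φ (s - ρ * F ^ 2) (s - ρ * G ^ 2)
  generalize fval φ (s - ρ * F ^ 2) = A at *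
  generalize fval φ (s - ρ * G ^ 2) = B at *
  have hsub := dvd_sub hF hG
  have key : F + Y * A ^ 2 - (G + Y * B ^ 2) =
      (F - G) * (1 - ρ * (Y * (F + G) * ψ * (A + B))) := by
    have e3 : A - B = -(ρ * (F - G) * (F + G) * ψ) := by
      rw [hψ]; ring
    linear_combination (Y * (A + B)) * e3
  rw [key] at hsub
  refine prime_x0.pow_dvd_of_dvd_mul_right e ?_ hsub
  intro h
  have h1 : (X 0 : R4) ∣ ρ * (Y * (F + G) * ψ * (A + B)) := Dvd.dvd.mul_right hρ _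
  have h2 : (X 0 : R4) ∣ 1 := (dvd_sub_left h1).1 h
  exact prime_x0.not_dvd_one h2

/-- From a divisibility, the remaining two coordinates of a triple. -/
lemma triple_exists (φ : MvPolynomial (Fin 2) ℂ) (e : ℕ) (Y Q' R' P' : R4)
    (hrel : Q' ^ 2 + Y * R' = ((X 0 : R4) ^ e) ^ 2 * P')
    (hx : ¬ (X 0 : R4) ∣ Y)
    (hdvd : (X 0 : R4) ^ e ∣ Q' - Y * fval φ P') :
    ∃ z' u' : R4, (X 0 : R4) ^ e * z' = Q' - Y * fval φ P' ∧
      ((X 0 : R4) ^ e) ^ 2 * u' = R' + 2 * Q' * fval φ P' - Y * (fval φ P') ^ 2 ∧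
      Y * u' + z' ^ 2 = P' := by
  obtain ⟨z', hz⟩ := hdvd
  generalize fval φ P' = f at *
  generalize ha : (X 0 : R4) ^ e = a at *
  have hne : a ≠ 0 := by
    rw [← ha]
    exact pow_ne_zero _ (X_ne_zero _)
  have h1 : a ^ 2 * (P' - z' ^ 2) = (R' + 2 * Q' * f - Y * f ^ 2) * Y := by
    linear_combination (-1 : R4) * hrel + ((Q' - Y * f) + a * z') * hz
  have h2 : (X 0 : R4) ^ (e * 2) ∣ (R' + 2 * Q' * f - Y * f ^ 2) * Y := by
    rw [pow_mul, ha]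
    exact ⟨_, h1.symm⟩
  have h3 : (X 0 : R4) ^ (e * 2) ∣ R' + 2 * Q' * f - Y * f ^ 2 :=
    prime_x0.pow_dvd_of_dvd_mul_right _ hx h2
  rw [pow_mul, ha] at h3
  obtain ⟨u', hu⟩ := h3
  refine ⟨z', u', hz.symm, hu.symm, ?_⟩
  have h4 : a ^ 2 * (Y * u' + z' ^ 2) = a ^ 2 * P' := by
    rw [hu] at h1
    linear_combination (-1 : R4) * h1
  exact mul_left_cancel₀ (pow_ne_zero 2 hne) h4

/-- The correction `Λ(v,s)`. -/
noncomputable def lam (φ : MvPolynomial (Fin 2) ℂ) (ρ : R4) (e : ℕ) (v s : R4) : R4 :=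
  fval φ s - fval φ (s - ρ * (fixIter φ ρ v s e) ^ 2)

lemma map_lam (θ : R4 →ₐ[ℂ] R4) (hx : θ (X 0) = X 0) (φ : MvPolynomial (Fin 2) ℂ)
    {ρ : R4} (hρ : θ ρ = ρ) (e : ℕ) (v s : R4) :
    θ (lam φ ρ e v s) = lam φ ρ e (θ v) (θ s) := by
  unfold lam
  simp only [map_sub, map_mul, map_pow, map_fval θ hx, hρ, map_fixIter θ hx φ hρ]

/-- Coordinates of the forward map. -/
lemma forward_triple (φ : MvPolynomial (Fin 2) ℂ) (e : ℕ) {ρ : R4} (hρ : (X 0 : R4) ∣ ρ) :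
    ∃ z' u' : R4,
      (X 0 : R4) ^ e * z' =
        (bigQ φ (X 0 ^ e) + (X 1 + (X 0 ^ e) ^ 2 * ρ * bigR φ (X 0 ^ e)) *
          lam φ ρ e (X 1 + (X 0 ^ e) ^ 2 * ρ * bigR φ (X 0 ^ e))
            (bigP + ρ * (bigR φ (X 0 ^ e)) ^ 2)) -
        (X 1 + (X 0 ^ e) ^ 2 * ρ * bigR φ (X 0 ^ e)) *
          fval φ (bigP + ρ * (bigR φ (X 0 ^ e)) ^ 2) ∧
      ((X 0 : R4) ^ e) ^ 2 * u' =
        (bigR φ (X 0 ^ e) - 2 * bigQ φ (X 0 ^ e) *
            lam φ ρ e (X 1 + (X 0 ^ e) ^ 2 * ρ * bigR φ (X 0 ^ e))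
              (bigP + ρ * (bigR φ (X 0 ^ e)) ^ 2) -
          (X 1 + (X 0 ^ e) ^ 2 * ρ * bigR φ (X 0 ^ e)) *
            (lam φ ρ e (X 1 + (X 0 ^ e) ^ 2 * ρ * bigR φ (X 0 ^ e))
              (bigP + ρ * (bigR φ (X 0 ^ e)) ^ 2)) ^ 2) +
        2 * (bigQ φ (X 0 ^ e) + (X 1 + (X 0 ^ e) ^ 2 * ρ * bigR φ (X 0 ^ e)) *
          lam φ ρ e (X 1 + (X 0 ^ e) ^ 2 * ρ * bigR φ (X 0 ^ e))
            (bigP + ρ * (bigR φ (X 0 ^ e)) ^ 2)) *
          fval φ (bigP + ρ * (bigR φ (X 0 ^ e)) ^ 2) -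
        (X 1 + (X 0 ^ e) ^ 2 * ρ * bigR φ (X 0 ^ e)) *
          (fval φ (bigP + ρ * (bigR φ (X 0 ^ e)) ^ 2)) ^ 2 ∧
      (X 1 + (X 0 ^ e) ^ 2 * ρ * bigR φ (X 0 ^ e)) * u' + z' ^ 2 =
        bigP + ρ * (bigR φ (X 0 ^ e)) ^ 2 := by
  have hrel0 := rel_PQR φ ((X 0 : R4) ^ e)
  have hQdef : bigQ φ ((X 0 : R4) ^ e) = X 0 ^ e * X 2 + X 1 * fval φ bigP := rfl
  have hRdef : bigR φ ((X 0 : R4) ^ e) =
      (X 0 ^ e) ^ 2 * X 3 - 2 * X 0 ^ e * X 2 * fval φ bigP - X 1 * (fval φ bigP) ^ 2 := rfl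
  have hxw : ¬ (X 0 : R4) ∣ X 1 + (X 0 ^ e) ^ 2 * ρ * bigR φ (X 0 ^ e) :=
    x0_not_dvd_y _ (Dvd.dvd.mul_right (Dvd.dvd.mul_left hρ _) _)
  set w : R4 := X 1 + (X 0 ^ e) ^ 2 * ρ * bigR φ (X 0 ^ e) with hw
  set R : R4 := bigR φ (X 0 ^ e) with hR
  set Q : R4 := bigQ φ (X 0 ^ e) with hQ
  set P₁ : R4 := bigP + ρ * R ^ 2 with hP₁
  refine triple_exists φ e w (Q + w * lam φ ρ e w P₁)
    (R - 2 * Q * lam φ ρ e w P₁ - w * (lam φ ρ e w P₁) ^ 2) P₁ ?_ hxw ?_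
  · rw [hP₁, hw]
    linear_combination hrel0
  · -- the divisibility
    have hF := fix_dvd φ hρ w P₁ e
    have hG : (X 0 : R4) ^ e ∣ R + w * (fval φ (P₁ - ρ * R ^ 2)) ^ 2 := by
      have e0 : P₁ - ρ * R ^ 2 = bigP := by rw [hP₁]; ring
      rw [e0]
      refine ⟨X 0 ^ e * X 3 - 2 * X 2 * fval φ bigP +
        X 0 ^ e * ρ * R * (fval φ bigP) ^ 2, ?_⟩
      rw [hw]
      linear_combination hRdef
    have hFG := fix_unique φ hρ e w P₁ _ _ hF hG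
    obtain ⟨c, hc⟩ := hFG
    have e0 : P₁ - ρ * R ^ 2 = bigP := by rw [hP₁]; ring
    obtain ⟨ψ, hψ⟩ := fval_diff φ bigP (P₁ - ρ * (fixIter φ ρ w P₁ e) ^ 2)
    refine ⟨X 2 - X 0 ^ e * ρ * R * fval φ bigP +
      w * ρ * c * (fixIter φ ρ w P₁ e + R) * ψ, ?_⟩
    unfold lam
    generalize fixIter φ ρ w P₁ e = F at *
    have e4 : fval φ bigP - fval φ (P₁ - ρ * F ^ 2) = ρ * (F - R) * (F + R) * ψ := by
      rw [hψ, hP₁]; ring
    rw [hc] at e4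
    generalize fval φ (P₁ - ρ * F ^ 2) = B at *
    generalize fval φ P₁ = fp at *
    have e5 : X 1 = w - (X 0 ^ e) ^ 2 * ρ * R := by
      rw [hw]; ring
    rw [hQdef]
    rw [e5]
    linear_combination (w) * e4

/-- Coordinates of the backward map. -/
lemma backward_triple (φ : MvPolynomial (Fin 2) ℂ) (e : ℕ) {ρ : R4} (hρ : (X 0 : R4) ∣ ρ)
    (L Rm : R4) (hL : L = lam φ ρ e (X 1) bigP)
    (hRm : Rm = bigR φ (X 0 ^ e) + 2 * L * bigQ φ (X 0 ^ e) - X 1 * L ^ 2) :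
    ∃ z' u' : R4,
      (X 0 : R4) ^ e * z' = (bigQ φ (X 0 ^ e) - X 1 * L) -
        (X 1 - (X 0 ^ e) ^ 2 * ρ * Rm) * fval φ (bigP - ρ * Rm ^ 2) ∧
      ((X 0 : R4) ^ e) ^ 2 * u' = Rm + 2 * (bigQ φ (X 0 ^ e) - X 1 * L) * fval φ (bigP - ρ * Rm ^ 2) -
        (X 1 - (X 0 ^ e) ^ 2 * ρ * Rm) * (fval φ (bigP - ρ * Rm ^ 2)) ^ 2 ∧
      (X 1 - (X 0 ^ e) ^ 2 * ρ * Rm) * u' + z' ^ 2 = bigP - ρ * Rm ^ 2 := by
  have hrel0 := rel_PQR φ ((X 0 : R4) ^ e)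
  have hQdef : bigQ φ ((X 0 : R4) ^ e) = X 0 ^ e * X 2 + X 1 * fval φ bigP := rfl
  have hRdef : bigR φ ((X 0 : R4) ^ e) =
      (X 0 ^ e) ^ 2 * X 3 - 2 * X 0 ^ e * X 2 * fval φ bigP - X 1 * (fval φ bigP) ^ 2 := rfl
  have hxw : ¬ (X 0 : R4) ∣ X 1 - (X 0 ^ e) ^ 2 * ρ * Rm := by
    rw [sub_eq_add_neg]
    exact x0_not_dvd_y _ ((dvd_neg).2 (Dvd.dvd.mul_right (Dvd.dvd.mul_left hρ _) _))
  set Y : R4 := X 1 - (X 0 ^ e) ^ 2 * ρ * Rm with hY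
  set R : R4 := bigR φ (X 0 ^ e) with hR
  set Q : R4 := bigQ φ (X 0 ^ e) with hQ
  refine triple_exists φ e Y (Q - X 1 * L) Rm (bigP - ρ * Rm ^ 2) ?_ hxw ?_
  · rw [hY]
    rw [hRm]
    linear_combination hrel0
  · have hF := fix_dvd φ hρ (X 1) bigP e
    have eB : fval φ (bigP - ρ * (fixIter φ ρ (X 1) bigP e) ^ 2) = fval φ bigP - L := by
      rw [hL]; unfold lam; ring
    rw [eB] at hF
    have hG : (X 0 : R4) ^ e ∣ Rm + X 1 * (fval φ bigP - L) ^ 2 := by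
      refine ⟨X 0 ^ e * X 3 - 2 * X 2 * fval φ bigP + 2 * L * X 2, ?_⟩
      rw [hRm]
      rw [hQdef, hRdef]
      ring
    obtain ⟨c, hc⟩ := dvd_sub hG hF
    obtain ⟨ψ, hψ⟩ := fval_diff φ (bigP - ρ * (fixIter φ ρ (X 1) bigP e) ^ 2) (bigP - ρ * Rm ^ 2)
    rw [eB] at hψ
    refine ⟨X 2 + X 1 * ρ * c * (Rm + fixIter φ ρ (X 1) bigP e) * ψ +
      X 0 ^ e * ρ * Rm * fval φ (bigP - ρ * Rm ^ 2), ?_⟩
    generalize fixIter φ ρ (X 1) bigP e = F at *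
    have hc' : Rm - F = X 0 ^ e * c := by
      linear_combination hc
    have e4 : (fval φ bigP - L) - fval φ (bigP - ρ * Rm ^ 2) = ρ * (Rm - F) * (Rm + F) * ψ := by
      rw [hψ]; ring
    rw [hc'] at e4
    generalize fval φ (bigP - ρ * Rm ^ 2) = fm at *
    rw [hY, hQdef]
    linear_combination (X 1) * e4

/-- The automorphism sending `y` to `y + a² ρ R`. -/
theorem exists_Omega (φ : MvPolynomial (Fin 2) ℂ) (e : ℕ) {ρ : R4} (hρ : (X 0 : R4) ∣ ρ)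
    (hρθ : ∀ θ : R4 →ₐ[ℂ] R4, θ (X 0) = X 0 → θ ρ = ρ) :
    ∃ Ω : R4 ≃ₐ[ℂ] R4, Ω (X 0) = X 0 ∧
      Ω (X 1) = X 1 + (X 0 ^ e) ^ 2 * ρ * bigR φ (X 0 ^ e) := by
  obtain ⟨zp, up, hzp, hup, hPp⟩ := forward_triple φ e hρ
  obtain ⟨zm, um, hzm, hum, hPm⟩ := backward_triple φ e hρ _ _ rfl rfl
  have hne : ((X 0 : R4) ^ e) ≠ 0 := pow_ne_zero _ (X_ne_zero _)
  have hQdef : bigQ φ ((X 0 : R4) ^ e) = X 0 ^ e * X 2 + X 1 * fval φ bigP := rfl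
  have hRdef : bigR φ ((X 0 : R4) ^ e) =
      (X 0 ^ e) ^ 2 * X 3 - 2 * X 0 ^ e * X 2 * fval φ bigP - X 1 * (fval φ bigP) ^ 2 := rfl
  have hrel0 := rel_PQR φ ((X 0 : R4) ^ e)
  set a : R4 := X 0 ^ e with ha
  set R : R4 := bigR φ a with hR
  set Q : R4 := bigQ φ a with hQ
  set w : R4 := X 1 + a ^ 2 * ρ * R with hw
  set P₁ : R4 := bigP + ρ * R ^ 2 with hP₁
  set Lp : R4 := lam φ ρ e w P₁ with hLp
  set fp : R4 := fval φ P₁ with hfp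
  set Lm : R4 := lam φ ρ e (X 1) bigP with hLm
  set f : R4 := fval φ bigP with hf
  set Rm : R4 := R + 2 * Lm * Q - X 1 * Lm ^ 2 with hRm
  set Ym : R4 := X 1 - a ^ 2 * ρ * Rm with hYm
  set Pm : R4 := bigP - ρ * Rm ^ 2 with hPmdef
  set Qm : R4 := Q - X 1 * Lm with hQm
  set fm : R4 := fval φ Pm with hfm
  have hΩx : endo w zp up (X 0) = X 0 := endo_x _ _ _
  have hΩy : endo w zp up (X 1) = w := endo_y _ _ _
  have hΩz : endo w zp up (X 2) = zp := endo_z _ _ _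
  have hΩu : endo w zp up (X 3) = up := endo_u _ _ _
  have hΨx : endo Ym zm um (X 0) = X 0 := endo_x _ _ _
  have hΨy : endo Ym zm um (X 1) = Ym := endo_y _ _ _
  have hΨz : endo Ym zm um (X 2) = zm := endo_z _ _ _
  have hΨu : endo Ym zm um (X 3) = um := endo_u _ _ _
  generalize hΩ : endo w zp up = Ω at *
  generalize hΨ : endo Ym zm um = Ψ at *
  have hΩa : Ω a = a := by rw [ha, map_pow, hΩx]
  have hΨa : Ψ a = a := by rw [ha, map_pow, hΨx]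
  have hΩρ : Ω ρ = ρ := hρθ Ω hΩx
  have hΨρ : Ψ ρ = ρ := hρθ Ψ hΨx
  have hΩP : Ω bigP = P₁ := by
    have h1 : Ω bigP = w * up + zp ^ 2 := by
      unfold bigP
      simp only [map_add, map_mul, map_pow, hΩy, hΩz, hΩu]
    rw [h1, hPp]
  have hΨP : Ψ bigP = Pm := by
    have h1 : Ψ bigP = Ym * um + zm ^ 2 := by
      unfold bigP
      simp only [map_add, map_mul, map_pow, hΨy, hΨz, hΨu]
    rw [h1, hPm]
  have hΩf : Ω f = fp := by rw [hf, map_fval Ω hΩx, hΩP]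
  have hΨf : Ψ f = fm := by rw [hf, map_fval Ψ hΨx, hΨP]
  have hΩQ : Ω Q = Q + w * Lp := by
    have h1 : Ω Q = a * zp + w * fp := by
      rw [hQdef]
      simp only [map_add, map_mul, hΩa, hΩy, hΩz, hΩf]
    rw [h1, hzp]
    ring
  have hΨQ : Ψ Q = Qm := by
    have h1 : Ψ Q = a * zm + Ym * fm := by
      rw [hQdef]
      simp only [map_add, map_mul, hΨa, hΨy, hΨz, hΨf]
    rw [h1, hzm]
    ring
  have hΩR : Ω R = R - 2 * Q * Lp - w * Lp ^ 2 := by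
    have h1 : Ω R = a ^ 2 * up - 2 * a * zp * fp - w * fp ^ 2 := by
      rw [hRdef]
      simp only [map_sub, map_mul, map_pow, hΩa, hΩy, hΩz, hΩu, hΩf, map_ofNat]
    rw [h1, hup]
    linear_combination (-2 * fp) * hzp
  have hΨR : Ψ R = Rm := by
    have h1 : Ψ R = a ^ 2 * um - 2 * a * zm * fm - Ym * fm ^ 2 := by
      rw [hRdef]
      simp only [map_sub, map_mul, map_pow, hΨa, hΨy, hΨz, hΨu, hΨf, map_ofNat]
    rw [h1, hum]
    linear_combination (-2 * fm) * hzm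
  have hΩLm : Ω Lm = Lp := by
    rw [hLm, map_lam Ω hΩx φ hΩρ, hΩy, hΩP]
  have hΨw : Ψ w = X 1 := by
    rw [hw]
    simp only [map_add, map_mul, map_pow, hΨy, hΨa, hΨρ, hΨR]
    rw [hYm]
    ring
  have hΨP₁ : Ψ P₁ = bigP := by
    rw [hP₁]
    simp only [map_add, map_mul, map_pow, hΨP, hΨρ, hΨR]
    rw [hPmdef]
    ring
  have hΨLp : Ψ Lp = Lm := by
    rw [hLp, map_lam Ψ hΨx φ hΨρ, hΨw, hΨP₁]
  have hΨfp : Ψ fp = f := by
    rw [hfp, map_fval Ψ hΨx, hΨP₁]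
  have hΩRm : Ω Rm = R := by
    rw [hRm]
    simp only [map_add, map_sub, map_mul, map_pow, hΩR, hΩQ, hΩLm, hΩy, map_ofNat]
    ring
  have hΩYm : Ω Ym = X 1 := by
    rw [hYm]
    simp only [map_sub, map_mul, map_pow, hΩy, hΩa, hΩρ, hΩRm]
    rw [hw]
    ring
  have hΩPm : Ω Pm = bigP := by
    rw [hPmdef]
    simp only [map_sub, map_mul, map_pow, hΩP, hΩρ, hΩRm]
    rw [hP₁]
    ring
  have hΩfm : Ω fm = f := by
    rw [hfm, map_fval Ω hΩx, hΩPm]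
  have hΩQm : Ω Qm = Q := by
    rw [hQm]
    simp only [map_sub, map_mul, hΩQ, hΩy, hΩLm]
    ring
  have hcomp1 : Ψ.comp Ω = AlgHom.id ℂ R4 := by
    apply MvPolynomial.algHom_ext
    intro i
    fin_cases i
    · simp [hΩx, hΨx]
    · simp only [AlgHom.comp_apply, AlgHom.id_apply]
      show Ψ (Ω (X 1)) = X 1
      rw [hΩy, hΨw]
    · show Ψ (Ω (X 2)) = X 2
      rw [hΩz]
      apply mul_left_cancel₀ hne
      rw [← hΨa, ← map_mul, hzp, hΨa]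
      simp only [map_add, map_sub, map_mul, hΨQ, hΨw, hΨLp, hΨfp]
      rw [hQm, hQdef]
      ring
    · show Ψ (Ω (X 3)) = X 3
      rw [hΩu]
      apply mul_left_cancel₀ (pow_ne_zero 2 hne)
      have h2 : Ψ (a ^ 2 * up) = a ^ 2 * Ψ up := by
        rw [map_mul, map_pow, hΨa]
      rw [← h2, hup]
      simp only [map_add, map_sub, map_mul, map_pow, hΨQ, hΨR, hΨw, hΨLp, hΨfp, map_ofNat]
      rw [hQm, hRm]
      rw [hQdef, hRdef]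
      ring
  have hcomp2 : Ω.comp Ψ = AlgHom.id ℂ R4 := by
    apply MvPolynomial.algHom_ext
    intro i
    fin_cases i
    · simp [hΩx, hΨx]
    · show Ω (Ψ (X 1)) = X 1
      rw [hΨy, hΩYm]
    · show Ω (Ψ (X 2)) = X 2
      rw [hΨz]
      apply mul_left_cancel₀ hne
      rw [← hΩa, ← map_mul, hzm, hΩa]
      simp only [map_sub, map_mul, hΩQm, hΩYm, hΩfm]
      rw [hQdef]
      ring
    · show Ω (Ψ (X 3)) = X 3
      rw [hΨu]
      apply mul_left_cancel₀ (pow_ne_zero 2 hne)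
      have h2 : Ω (a ^ 2 * um) = a ^ 2 * Ω um := by
        rw [map_mul, map_pow, hΩa]
      rw [← h2, hum]
      simp only [map_add, map_sub, map_mul, map_pow, hΩQm, hΩRm, hΩYm, hΩfm, map_ofNat]
      rw [hQdef, hRdef]
      ring
  exact ⟨AlgEquiv.ofAlgHom Ω Ψ hcomp2 hcomp1, hΩx, hΩy⟩

/-- The extended family: all `e < m`. -/
theorem exists_equiv_gt (m e : ℕ) (h : e < m) (φ : MvPolynomial (Fin 2) ℂ) :
    ∃ Φ : R4 ≃ₐ[ℂ] R4, Φ (X 0) = X 0 ∧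
      Φ (X 1) = X 1 + X 0 ^ m *
        (X 0 ^ e * X 2 + X 1 * aeval ![X 0, X 1 * X 3 + X 2 ^ 2] φ) := by
  set a : R4 := X 0 ^ e with hadef
  have ha0 : a ≠ 0 := pow_ne_zero _ (X_ne_zero _)
  have ha : ∀ θ : R4 →ₐ[ℂ] R4, θ (X 0) = X 0 → θ a = a := by
    intro θ hx
    rw [hadef, map_pow, hx]
  set t : R4 := xmon (1 / 2) (m - e) with htdef
  set ρ : R4 := xmon (1 / 4) (2 * (m - e)) with hρdef
  have hρx : (X 0 : R4) ∣ ρ := by
    rw [hρdef]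
    unfold xmon
    refine Dvd.dvd.mul_left (dvd_pow_self _ ?_) _
    omega
  obtain ⟨Θ, hΘx, hΘy, hΘR⟩ := exists_psi_equiv φ t ha0 ha (fun θ hx => map_xmon θ hx _ _)
  obtain ⟨Ω, hΩx, hΩy0⟩ := exists_Omega φ e hρx (fun θ hx => map_xmon θ hx _ _)
  have hΩy : Ω (X 1) = X 1 + a ^ 2 * ρ * bigR φ a := hΩy0
  have hΘcx : (Θ : R4 →ₐ[ℂ] R4) (X 0) = X 0 := hΘx
  have hta : 2 * t * a = X 0 ^ m := by
    have h2 : (C (1 / 2 : ℂ) : R4) * 2 = 1 := by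
      have : (2 : R4) = C 2 := (map_ofNat C 2).symm
      rw [this, ← C_mul]
      norm_num
    calc 2 * t * a = (C (1 / 2 : ℂ) * 2) * (X 0 ^ (m - e) * X 0 ^ e) := by
          rw [htdef, hadef]; unfold xmon; ring
      _ = X 0 ^ m := by
          rw [h2, one_mul, ← pow_add]
          congr 1
          omega
  have hquad : t ^ 2 = ρ := by
    have h4 : (C (1 / 2 : ℂ) : R4) ^ 2 = C (1 / 4) := by
      rw [← C_pow]
      norm_num
    rw [htdef, hρdef]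
    unfold xmon
    rw [mul_pow, h4, ← pow_mul, mul_comm (m - e) 2]
  refine ⟨Ω.trans Θ, ?_, ?_⟩
  · simp only [AlgEquiv.trans_apply, hΩx, hΘx]
  · have hΘa : Θ a = a := ha (Θ : R4 →ₐ[ℂ] R4) hΘcx
    have hΘρ : Θ ρ = ρ := map_xmon (Θ : R4 →ₐ[ℂ] R4) hΘcx _ _
    simp only [AlgEquiv.trans_apply, hΩy, map_add, map_mul, map_pow, hΘy, hΘR, hΘa, hΘρ]
    have hQ : bigQ φ a = a * X 2 + X 1 * aeval ![X 0, X 1 * X 3 + X 2 ^ 2] φ := rfl
    rw [← hQ, ← hta, hquad]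
    ring

end Vale.Agent.Lib.P295
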